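import Mathlib

set_option autoImplicit false

namespace Crest.Agent.S0328

/-- Upper/lower bounds for the coordinate area factor of the covering triangle. -/
lemma area_factor_bounds (R Rbar θ h LM : ℝ) (hR0 : 0 ≤ R) (hRb : R ≤ Rbar) (hθ0 : 0 < θ)
    (hθ1 : θ ≤ 1) (hh0 : 0 < h) (hhθ : h ≤ θ ^ 2) (hLM : 0 ≤ LM) :
    R ^ 2 * h ≤ (R + θ + 2 * LM * h + Real.sqrt h) ^ 2 * (h + 2 * LM * h * Real.sqrt h) ∧
    (R + θ + 2 * LM * h + Real.sqrt h) ^ 2 * (h + 2 * LM * h * Real.sqrt h) ≤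
      R ^ 2 * h + θ * (Rbar ^ 2 * (2 + 2 * LM) +
        (2 * Rbar * (2 + 2 * LM) + (2 + 2 * LM) ^ 2) * (1 + (2 + 2 * LM))) * h := by
  set s := Real.sqrt h with hs
  have hs0 : 0 < s := Real.sqrt_pos.mpr hh0
  have hss : s * s = h := Real.mul_self_sqrt hh0.le
  have hsθ : s ≤ θ := by
    have : s ≤ Real.sqrt (θ ^ 2) := Real.sqrt_le_sqrt hhθ
    rwa [Real.sqrt_sq hθ0.le] at this
  have hhθ' : h ≤ θ := le_trans hhθ (by nlinarith)
  have hRbar0 : 0 ≤ Rbar := le_trans hR0 hRb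
  set B := 2 + 2 * LM with hB
  have hB0 : 0 < B := by rw [hB]; linarith
  have hX0 : R ≤ R + θ + 2 * LM * h + s := by
    have : 0 ≤ 2 * LM * h := by positivity
    linarith
  have hX1 : R + θ + 2 * LM * h + s ≤ R + B * θ := by
    have : 2 * LM * h ≤ 2 * LM * θ := mul_le_mul_of_nonneg_left hhθ' (by positivity)
    rw [hB]; linarith
  have hY0 : h ≤ h + 2 * LM * h * s := by
    have : 0 ≤ 2 * LM * h * s := by positivity
    linarith
  have hY1 : h + 2 * LM * h * s ≤ h * (1 + B * θ) := by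
    have h1 : 2 * LM * h * s ≤ 2 * LM * h * θ :=
      mul_le_mul_of_nonneg_left hsθ (by positivity)
    have h2 : 2 * LM * h * θ ≤ B * h * θ := by
      have : 2 * LM ≤ B := by rw [hB]; linarith
      have hθh : 0 ≤ h * θ := by positivity
      nlinarith
    nlinarith
  constructor
  · have h1 : R ^ 2 ≤ (R + θ + 2 * LM * h + s) ^ 2 := by nlinarith
    calc R ^ 2 * h ≤ (R + θ + 2 * LM * h + s) ^ 2 * h :=
          mul_le_mul_of_nonneg_right h1 hh0.le
      _ ≤ (R + θ + 2 * LM * h + s) ^ 2 * (h + 2 * LM * h * s) :=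
          mul_le_mul_of_nonneg_left hY0 (sq_nonneg _)
  · have hXpos : 0 ≤ R + θ + 2 * LM * h + s := le_trans hR0 hX0
    have h1 : (R + θ + 2 * LM * h + s) ^ 2 ≤ (R + B * θ) ^ 2 := by nlinarith
    have hBθ : 0 ≤ B * θ := by positivity
    calc (R + θ + 2 * LM * h + s) ^ 2 * (h + 2 * LM * h * s)
        ≤ (R + B * θ) ^ 2 * (h + 2 * LM * h * s) :=
          mul_le_mul_of_nonneg_right h1 (le_trans hh0.le hY0)
      _ ≤ (R + B * θ) ^ 2 * (h * (1 + B * θ)) :=
          mul_le_mul_of_nonneg_left hY1 (sq_nonneg _)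
      _ = R ^ 2 * h + (R ^ 2 * (B * θ) + (2 * R * (B * θ) + (B * θ) ^ 2) * (1 + B * θ)) * h := by
          ring
      _ ≤ R ^ 2 * h + θ * (Rbar ^ 2 * B + (2 * Rbar * B + B ^ 2) * (1 + B)) * h := by
          have hR2 : R ^ 2 ≤ Rbar ^ 2 := by nlinarith
          have e1 : R ^ 2 * (B * θ) ≤ θ * (Rbar ^ 2 * B) := by
            have : R ^ 2 * (B * θ) ≤ Rbar ^ 2 * (B * θ) := mul_le_mul_of_nonneg_right hR2 hBθ
            linarith
          have e2 : 2 * R * (B * θ) + (B * θ) ^ 2 ≤ θ * (2 * Rbar * B + B ^ 2) := by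
            have h3 : 2 * R * (B * θ) ≤ 2 * Rbar * (B * θ) := by
              have : 2 * R ≤ 2 * Rbar := by linarith
              exact mul_le_mul_of_nonneg_right this hBθ
            have h4 : (B * θ) ^ 2 ≤ θ * B ^ 2 := by
              have : θ ^ 2 ≤ θ := by nlinarith
              have hB2 : 0 ≤ B ^ 2 := sq_nonneg _
              nlinarith
            linarith
          have e3 : 1 + B * θ ≤ 1 + B := by nlinarith
          have e4 : 0 ≤ 2 * R * (B * θ) + (B * θ) ^ 2 := by positivity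
          have e5 : (2 * R * (B * θ) + (B * θ) ^ 2) * (1 + B * θ)
              ≤ θ * (2 * Rbar * B + B ^ 2) * (1 + B) := by
            calc (2 * R * (B * θ) + (B * θ) ^ 2) * (1 + B * θ)
                ≤ (2 * R * (B * θ) + (B * θ) ^ 2) * (1 + B) := mul_le_mul_of_nonneg_left e3 e4
              _ ≤ θ * (2 * Rbar * B + B ^ 2) * (1 + B) :=
                  mul_le_mul_of_nonneg_right e2 (by linarith)
          have e6 : R ^ 2 * (B * θ) + (2 * R * (B * θ) + (B * θ) ^ 2) * (1 + B * θ)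
              ≤ θ * (Rbar ^ 2 * B + (2 * Rbar * B + B ^ 2) * (1 + B)) := by
            have : θ * (Rbar ^ 2 * B + (2 * Rbar * B + B ^ 2) * (1 + B))
                = θ * (Rbar ^ 2 * B) + θ * (2 * Rbar * B + B ^ 2) * (1 + B) := by ring
            rw [this]; linarith
          have := mul_le_mul_of_nonneg_right e6 hh0.le
          linarith

/-- Bounds for the truncated lower radius. -/
lemma lower_radius_bounds (R Rbar θ : ℝ) (hR0 : 0 ≤ R) (hRb : R ≤ Rbar) (hθ0 : 0 < θ) :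
    0 ≤ max (R - θ) 0 ∧ (max (R - θ) 0) ^ 2 ≤ R ^ 2 ∧
      R ^ 2 - 2 * Rbar * θ ≤ (max (R - θ) 0) ^ 2 := by
  refine ⟨le_max_right _ _, ?_, ?_⟩
  · have h1 : max (R - θ) 0 ≤ R := max_le (by linarith) hR0
    have h0 : 0 ≤ max (R - θ) 0 := le_max_right _ _
    nlinarith
  · rcases le_total (R - θ) 0 with h | h
    · rw [max_eq_right h]
      have : R ≤ θ := by linarith
      nlinarith
    · rw [max_eq_left h]
      nlinarith

end Crest.Agent.S0328
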