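import Mathlib

set_option autoImplicit false

namespace Crest.Agent.S0328

open MeasureTheory

variable {V : Type*} [NormedAddCommGroup V] [InnerProductSpace ℝ V]

/-- Gram determinant of two vectors. -/
noncomputable def gram (x y : V) : ℝ := ‖x‖ ^ 2 * ‖y‖ ^ 2 - (inner ℝ x y) ^ 2

lemma gram_nonneg (x y : V) : 0 ≤ gram x y := by
  unfold gram
  have h := real_inner_mul_inner_self_le x y
  have h1 : inner ℝ x x = ‖x‖ ^ 2 := real_inner_self_eq_norm_sq x
  have h2 : inner ℝ y y = ‖y‖ ^ 2 := real_inner_self_eq_norm_sq y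
  rw [h1, h2] at h
  nlinarith

lemma gram_lin (x y : V) (α β γ δ : ℝ) :
    gram (α • x + β • y) (γ • x + δ • y) = (α * δ - β * γ) ^ 2 * gram x y := by
  unfold gram
  have e1 : ‖α • x + β • y‖ ^ 2 = α ^ 2 * ‖x‖ ^ 2 + 2 * α * β * inner ℝ x y + β ^ 2 * ‖y‖ ^ 2 := by
    rw [← real_inner_self_eq_norm_sq]
    simp only [inner_add_left, inner_add_right, inner_smul_left, inner_smul_right,
      real_inner_self_eq_norm_sq, RCLike.conj_to_real]
    rw [real_inner_comm x y]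
    ring
  have e2 : ‖γ • x + δ • y‖ ^ 2 = γ ^ 2 * ‖x‖ ^ 2 + 2 * γ * δ * inner ℝ x y + δ ^ 2 * ‖y‖ ^ 2 := by
    rw [← real_inner_self_eq_norm_sq]
    simp only [inner_add_left, inner_add_right, inner_smul_left, inner_smul_right,
      real_inner_self_eq_norm_sq, RCLike.conj_to_real]
    rw [real_inner_comm x y]
    ring
  have e3 : inner ℝ (α • x + β • y) (γ • x + δ • y)
      = α * γ * ‖x‖ ^ 2 + (α * δ + β * γ) * inner ℝ x y + β * δ * ‖y‖ ^ 2 := by
    simp only [inner_add_left, inner_add_right, inner_smul_left, inner_smul_right,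
      real_inner_self_eq_norm_sq, RCLike.conj_to_real]
    rw [real_inner_comm x y]
    ring
  rw [e1, e2, e3]
  ring

end Crest.Agent.S0328

namespace Crest.Agent.S0328

variable {V : Type*} [NormedAddCommGroup V] [InnerProductSpace ℝ V]

/-- Orthogonal projection along the direction `n` (onto `n^⊥`), written exactly as in the statement. -/
noncomputable def proj (n v : V) : V := v - (inner ℝ v n / ‖n‖ ^ 2) • n

lemma proj_add (n x y : V) : proj n (x + y) = proj n x + proj n y := by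
  unfold proj
  rw [inner_add_left, add_div, add_smul]
  abel

lemma proj_smul (n : V) (c : ℝ) (x : V) : proj n (c • x) = c • proj n x := by
  unfold proj
  rw [inner_smul_left, smul_sub, smul_smul]
  simp [mul_div_assoc]

/-- The projection as a linear map. -/
noncomputable def projL (n : V) : V →ₗ[ℝ] V where
  toFun := proj n
  map_add' := proj_add n
  map_smul' := by intro c x; simpa using proj_smul n c x

@[simp] lemma projL_apply (n v : V) : projL n v = proj n v := rfl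

lemma proj_sub (n x y : V) : proj n (x - y) = proj n x - proj n y := by
  have := (projL n).map_sub x y
  simpa using this

lemma proj_self {n : V} (hn : n ≠ 0) : proj n n = 0 := by
  unfold proj
  have h : ‖n‖ ^ 2 ≠ 0 := by positivity
  rw [real_inner_self_eq_norm_sq, div_self h, one_smul, sub_self]

lemma proj_inner {n : V} (hn : n ≠ 0) (v : V) : inner ℝ (proj n v) n = 0 := by
  unfold proj
  have h : ‖n‖ ^ 2 ≠ 0 := by positivity
  rw [inner_sub_left, inner_smul_left, real_inner_self_eq_norm_sq]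
  simp
  field_simp
  ring

lemma inner_proj_proj {n : V} (hn : n ≠ 0) (x y : V) :
    inner ℝ (proj n x) (proj n y) = inner ℝ x y - inner ℝ x n * inner ℝ y n / ‖n‖ ^ 2 := by
  have h : ‖n‖ ^ 2 ≠ 0 := by positivity
  have h0 := proj_inner hn x
  unfold proj at *
  rw [inner_sub_right, inner_smul_right, h0, mul_zero, sub_zero, inner_sub_left, inner_smul_left]
  simp
  rw [real_inner_comm y n]
  field_simp

lemma norm_proj_sq {n : V} (hn : n ≠ 0) (x : V) :
    ‖proj n x‖ ^ 2 = ‖x‖ ^ 2 - (inner ℝ x n) ^ 2 / ‖n‖ ^ 2 := by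
  rw [← real_inner_self_eq_norm_sq, inner_proj_proj hn, real_inner_self_eq_norm_sq]
  ring

lemma gram_proj_general {n : V} (hn : n ≠ 0) (x y : V) :
    gram (proj n x) (proj n y) = gram x y -
      (‖x‖ ^ 2 * (inner ℝ y n) ^ 2 + ‖y‖ ^ 2 * (inner ℝ x n) ^ 2
        - 2 * inner ℝ x y * inner ℝ x n * inner ℝ y n) / ‖n‖ ^ 2 := by
  have h : ‖n‖ ^ 2 ≠ 0 := by positivity
  unfold gram
  rw [norm_proj_sq hn, norm_proj_sq hn, inner_proj_proj hn]
  field_simp
  ring

end Crest.Agent.S0328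

namespace Crest.Agent.S0328

/-- The ambient space. -/
abbrev E3 : Type := EuclideanSpace ℝ (Fin 3)

lemma inner3 (u v : E3) :
    inner ℝ u v = u 0 * v 0 + u 1 * v 1 + u 2 * v 2 := by
  simp [PiLp.inner_apply, Fin.sum_univ_three]
  ring

lemma det3_zero_aux (x0 x1 x2 y0 y1 y2 w0 w1 w2 e0 e1 e2 : ℝ)
    (hx : x0*e0 + x1*e1 + x2*e2 = 0) (hy : y0*e0 + y1*e1 + y2*e2 = 0)
    (hw : w0*e0 + w1*e1 + w2*e2 = 0) (he : e0^2+e1^2+e2^2 = 1) :
    x0*(y1*w2 - y2*w1) - x1*(y0*w2 - y2*w0) + x2*(y0*w1 - y1*w0) = 0 := by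
  have h : (x0*(y1*w2 - y2*w1) - x1*(y0*w2 - y2*w0) + x2*(y0*w1 - y1*w0)) * (e0^2+e1^2+e2^2) = 0 := by
    linear_combination (e0*(y1*w2 - y2*w1) - e1*(y0*w2 - y2*w0) + e2*(y0*w1 - y1*w0)) * hx
      + (x0*(e1*w2 - e2*w1) - x1*(e0*w2 - e2*w0) + x2*(e0*w1 - e1*w0)) * hy
      + (x0*(y1*e2 - y2*e1) - x1*(y0*e2 - y2*e0) + x2*(y0*e1 - y1*e0)) * hw
  rw [he, mul_one] at h
  exact h

/-- Three vectors of `ℝ³` orthogonal to a unit vector have vanishing Gram determinant. -/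
lemma gram3_zero (e x y w : E3) (he : ‖e‖ = 1) (hx : inner ℝ x e = 0) (hy : inner ℝ y e = 0)
    (hw : inner ℝ w e = 0) :
    ‖x‖ ^ 2 * (inner ℝ y w) ^ 2 + ‖y‖ ^ 2 * (inner ℝ x w) ^ 2
        - 2 * inner ℝ x y * inner ℝ x w * inner ℝ y w = ‖w‖ ^ 2 * gram x y := by
  have he2 : e 0 ^ 2 + e 1 ^ 2 + e 2 ^ 2 = 1 := by
    have := real_inner_self_eq_norm_sq e
    rw [he, inner3] at this
    nlinarith
  rw [inner3] at hx hy hw
  have hdet := det3_zero_aux (x 0) (x 1) (x 2) (y 0) (y 1) (y 2) (w 0) (w 1) (w 2) (e 0) (e 1) (e 2)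
    hx hy hw he2
  unfold gram
  rw [← real_inner_self_eq_norm_sq x, ← real_inner_self_eq_norm_sq y, ← real_inner_self_eq_norm_sq w]
  simp only [inner3]
  have key : ∀ d : ℝ, d = x 0*(y 1*w 2 - y 2*w 1) - x 1*(y 0*w 2 - y 2*w 0) + x 2*(y 0*w 1 - y 1*w 0) →
      (x 0 * x 0 + x 1 * x 1 + x 2 * x 2) * (y 0 * w 0 + y 1 * w 1 + y 2 * w 2) ^ 2 +
        (y 0 * y 0 + y 1 * y 1 + y 2 * y 2) * (x 0 * w 0 + x 1 * w 1 + x 2 * w 2) ^ 2 -
        2 * (x 0 * y 0 + x 1 * y 1 + x 2 * y 2) * (x 0 * w 0 + x 1 * w 1 + x 2 * w 2) *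
          (y 0 * w 0 + y 1 * w 1 + y 2 * w 2) =
      (w 0 * w 0 + w 1 * w 1 + w 2 * w 2) *
        ((x 0 * x 0 + x 1 * x 1 + x 2 * x 2) * (y 0 * y 0 + y 1 * y 1 + y 2 * y 2) -
          (x 0 * y 0 + x 1 * y 1 + x 2 * y 2) ^ 2) - d ^ 2 := by
    intro d hd; subst hd; ring
  rw [key _ rfl, hdet]
  ring

/-- Projecting two vectors of `e^⊥` along `e + w` (with `w ⊥ e`) divides the Gram determinant
by `1 + ‖w‖²`. -/
lemma gram_proj (e x y w : E3) (he : ‖e‖ = 1) (hx : inner ℝ x e = 0) (hy : inner ℝ y e = 0)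
    (hw : inner ℝ w e = 0) :
    gram (proj (e + w) x) (proj (e + w) y) = gram x y / (1 + ‖w‖ ^ 2) := by
  have hN : ‖e + w‖ ^ 2 = 1 + ‖w‖ ^ 2 := by
    rw [← real_inner_self_eq_norm_sq, inner_add_left, inner_add_right, inner_add_right,
      real_inner_self_eq_norm_sq, real_inner_self_eq_norm_sq, he, hw, real_inner_comm w e, hw]
    ring
  have hn : e + w ≠ 0 := by
    intro h
    rw [h] at hN
    simp at hN
    nlinarith [sq_nonneg ‖w‖]
  have hxn : inner ℝ x (e + w) = inner ℝ x w := by rw [inner_add_right, hx, zero_add]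
  have hyn : inner ℝ y (e + w) = inner ℝ y w := by rw [inner_add_right, hy, zero_add]
  rw [gram_proj_general hn, hN, hxn, hyn, gram3_zero e x y w he hx hy hw]
  have : (1 + ‖w‖ ^ 2) ≠ 0 := by positivity
  field_simp
  ring

lemma norm_add_sq_of_orth (e w : E3) (he : ‖e‖ = 1) (hw : inner ℝ w e = 0) :
    ‖e + w‖ ^ 2 = 1 + ‖w‖ ^ 2 := by
  rw [← real_inner_self_eq_norm_sq, inner_add_left, inner_add_right, inner_add_right,
    real_inner_self_eq_norm_sq, real_inner_self_eq_norm_sq, he, hw, real_inner_comm w e, hw]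
  ring

lemma add_ne_zero_of_orth (e w : E3) (he : ‖e‖ = 1) (hw : inner ℝ w e = 0) : e + w ≠ 0 := by
  intro h
  have hN := norm_add_sq_of_orth e w he hw
  rw [h] at hN
  simp at hN
  nlinarith [sq_nonneg ‖w‖]

end Crest.Agent.S0328
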