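import Mathlib
import Crest.Agent.S0328.Gram

set_option autoImplicit false

namespace Crest.Agent.S0328

/-- The dual functional: `dualL a b x = (‖b‖² ⟪a,x⟫ - ⟪a,b⟫ ⟪b,x⟫) / gram a b`. -/
noncomputable def dualL (a b : E3) : E3 →L[ℝ] ℝ :=
  (‖b‖ ^ 2 / gram a b) • innerSL ℝ a - (inner ℝ a b / gram a b) • innerSL ℝ b

lemma dualL_apply (a b x : E3) :
    dualL a b x = (‖b‖ ^ 2 * inner ℝ a x - inner ℝ a b * inner ℝ b x) / gram a b := by
  unfold dualL
  simp only [sub_apply, smul_apply, innerSL_apply_apply,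
    smul_eq_mul]
  ring

lemma dualL_left (a b : E3) (hab : 0 < gram a b) : dualL a b a = 1 := by
  rw [dualL_apply, real_inner_self_eq_norm_sq, real_inner_comm a b]
  have : ‖b‖ ^ 2 * ‖a‖ ^ 2 - inner ℝ a b * inner ℝ a b = gram a b := by unfold gram; ring
  rw [this, div_self hab.ne']

lemma dualL_right (a b : E3) : dualL a b b = 0 := by
  rw [dualL_apply, real_inner_self_eq_norm_sq]
  have : ‖b‖ ^ 2 * inner ℝ a b - inner ℝ a b * ‖b‖ ^ 2 = 0 := by ring
  rw [this, zero_div]

lemma gram_comm (a b : E3) : gram a b = gram b a := by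
  unfold gram; rw [real_inner_comm a b]; ring

/-- Decomposition of the increment of `w` along `a + c b` and `b`, with linear and quadratic
bounds on the coefficients. -/
lemma w_decomp (a b : E3) (hab : 0 < gram a b) (w : ℝ → E3) (lam : ℝ → ℝ) (α β : ℝ)
    (hw' : ∀ t ∈ Set.Icc α β, HasDerivWithinAt w (lam t • (a + t • b)) (Set.Icc α β) t)
    (M : ℝ) (hM : ∀ t ∈ Set.Icc α β, |lam t| ≤ M)
    (c τ : ℝ) (hc : c ∈ Set.Icc α β) (hτ : τ ∈ Set.Icc α β) :
    ∃ A G : ℝ, w τ - w c = A • (a + c • b) + G • b ∧ |A| ≤ M * |τ - c| ∧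
      |G| ≤ M * |τ - c| ^ 2 := by
  set la := dualL a b with hla
  set lb := dualL b a with hlb
  have hba : 0 < gram b a := by rw [gram_comm]; exact hab
  have la_a : la a = 1 := dualL_left a b hab
  have la_b : la b = 0 := dualL_right a b
  have lb_b : lb b = 1 := dualL_left b a hba
  have lb_a : lb a = 0 := dualL_right b a
  -- derivative facts
  have hd1 : ∀ σ ∈ Set.Icc α β,
      HasDerivWithinAt (fun σ => w σ - w c) (lam σ • (a + σ • b)) (Set.Icc α β) σ :=
    fun σ hσ => (hw' σ hσ).sub_const (w c)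
  have hdA : ∀ σ ∈ Set.Icc α β,
      HasDerivWithinAt (fun σ => la (w σ - w c)) (lam σ) (Set.Icc α β) σ := by
    intro σ hσ
    have h := la.hasFDerivAt.comp_hasDerivWithinAt σ (hd1 σ hσ)
    have e : la (lam σ • (a + σ • b)) = lam σ := by
      rw [map_smul, map_add, map_smul, la_a, la_b]; simp
    rw [e] at h
    exact h
  have hdB : ∀ σ ∈ Set.Icc α β,
      HasDerivWithinAt (fun σ => lb (w σ - w c)) (lam σ * σ) (Set.Icc α β) σ := by
    intro σ hσ
    have h := lb.hasFDerivAt.comp_hasDerivWithinAt σ (hd1 σ hσ)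
    have e : lb (lam σ • (a + σ • b)) = lam σ * σ := by
      rw [map_smul, map_add, map_smul, lb_a, lb_b]; simp
    rw [e] at h
    exact h
  -- residual
  have hdr : ∀ σ ∈ Set.Icc α β,
      HasDerivWithinAt (fun σ => w σ - w c - la (w σ - w c) • a - lb (w σ - w c) • b)
        ((fun _ => (0 : E3)) σ) (Set.Icc α β) σ := by
    intro σ hσ
    have h := ((hd1 σ hσ).sub ((hdA σ hσ).smul_const a)).sub ((hdB σ hσ).smul_const b)
    have e : lam σ • (a + σ • b) - lam σ • a - (lam σ * σ) • b = 0 := by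
      rw [smul_add, smul_smul]; abel
    rw [e] at h
    exact h
  have hr := Convex.norm_image_sub_le_of_norm_hasDerivWithin_le (C := 0) hdr
    (fun x _ => by simp) (convex_Icc α β) hc hτ
  simp only [sub_self, map_zero, zero_smul, sub_zero, zero_mul, norm_le_zero_iff] at hr
  -- bounds on A
  have hA := Convex.norm_image_sub_le_of_norm_hasDerivWithin_le (C := M) hdA
    (fun x hx => by simpa using hM x hx) (convex_Icc α β) hc hτ
  simp only [sub_self, map_zero, sub_zero, Real.norm_eq_abs] at hA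
  -- bounds on G
  have hsub : Set.uIcc c τ ⊆ Set.Icc α β := Set.uIcc_subset_Icc hc hτ
  have hdG : ∀ σ ∈ Set.uIcc c τ,
      HasDerivWithinAt (fun σ => lb (w σ - w c) - c * la (w σ - w c)) (lam σ * (σ - c))
        (Set.uIcc c τ) σ := by
    intro σ hσ
    have h := ((hdB σ (hsub hσ)).sub ((hdA σ (hsub hσ)).const_mul c)).mono hsub
    have e : lam σ * σ - c * lam σ = lam σ * (σ - c) := by ring
    rw [e] at h
    exact h
  have hG := Convex.norm_image_sub_le_of_norm_hasDerivWithin_le (C := M * |τ - c|) hdG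
    (fun x hx => by
      rw [Real.norm_eq_abs, abs_mul]
      have h1 := hM x (hsub hx)
      have h2 : |x - c| ≤ |τ - c| := Set.abs_sub_left_of_mem_uIcc hx
      have h3 : 0 ≤ M := le_trans (abs_nonneg _) h1
      exact mul_le_mul h1 h2 (abs_nonneg _) h3)
    (convex_uIcc c τ) Set.left_mem_uIcc Set.right_mem_uIcc
  simp only [sub_self, map_zero, mul_zero, sub_zero, Real.norm_eq_abs] at hG
  refine ⟨la (w τ - w c), lb (w τ - w c) - c * la (w τ - w c), ?_, hA, ?_⟩
  · have h0 : w τ - w c = la (w τ - w c) • a + lb (w τ - w c) • b := by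
      have := hr
      rw [sub_sub, sub_eq_zero] at this
      exact this
    calc w τ - w c = la (w τ - w c) • a + lb (w τ - w c) • b := h0
      _ = la (w τ - w c) • (a + c • b) + (lb (w τ - w c) - c * la (w τ - w c)) • b := by
        rw [smul_add, sub_smul, smul_smul, mul_comm c]
        abel
  · calc |lb (w τ - w c) - c * la (w τ - w c)| ≤ M * |τ - c| * |τ - c| := hG
      _ = M * |τ - c| ^ 2 := by ring

end Crest.Agent.S0328
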