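import Mathlib
import Crest.Agent.S0328.Gram

set_option autoImplicit false

namespace Crest.Agent.S0328

open MeasureTheory

variable {V : Type*} [NormedAddCommGroup V] [InnerProductSpace ℝ V]

/-- A convex combination of three points lies in their convex hull. -/
lemma mem_convexHull_triple (P Q R : V) (w0 w1 w2 : ℝ) (h0 : 0 ≤ w0) (h1 : 0 ≤ w1) (h2 : 0 ≤ w2)
    (hs : w0 + w1 + w2 = 1) : w0 • P + w1 • Q + w2 • R ∈ convexHull ℝ ({P, Q, R} : Set V) := by
  have hc := convex_convexHull ℝ ({P, Q, R} : Set V)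
  have hP : P ∈ convexHull ℝ ({P, Q, R} : Set V) := subset_convexHull ℝ _ (by simp)
  have hQ : Q ∈ convexHull ℝ ({P, Q, R} : Set V) := subset_convexHull ℝ _ (by simp)
  have hR : R ∈ convexHull ℝ ({P, Q, R} : Set V) := subset_convexHull ℝ _ (by simp)
  have := hc.sum_mem (t := (Finset.univ : Finset (Fin 3))) (w := ![w0, w1, w2]) (z := ![P, Q, R])
    (by intro i _; fin_cases i <;> simp [h0, h1, h2])
    (by simp [Fin.sum_univ_three, hs])
    (by intro i _; fin_cases i <;> simp [hP, hQ, hR])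
  simpa [Fin.sum_univ_three] using this

/-- Every point of the convex hull of three points is a convex combination of them, written in the
nested form. -/
lemma exists_of_mem_convexHull_triple (P Q R y : V) (hy : y ∈ convexHull ℝ ({P, Q, R} : Set V)) :
    ∃ a1 b1 a2 b2 : ℝ, 0 ≤ a1 ∧ 0 ≤ b1 ∧ a1 + b1 = 1 ∧ 0 ≤ a2 ∧ 0 ≤ b2 ∧ a2 + b2 = 1 ∧
      y = a1 • P + b1 • (a2 • Q + b2 • R) := by
  rw [convexHull_insert (by simp), convexHull_pair] at hy
  rw [mem_convexJoin] at hy
  obtain ⟨x, hx, z, hz, hyz⟩ := hy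
  rw [Set.mem_singleton_iff] at hx
  subst hx
  obtain ⟨a2, b2, ha2, hb2, hab2, rfl⟩ := hz
  obtain ⟨a1, b1, ha1, hb1, hab1, rfl⟩ := hyz
  exact ⟨a1, b1, a2, b2, ha1, hb1, hab1, ha2, hb2, hab2, rfl⟩

/-- Membership in a triangle given in skew coordinates: apex `O - x0 f1`, far side on `ξ1 = X`,
side slopes `-su` and `sv`. -/
lemma tri_mem (O f1 f2 : V) (x0 X su sv ξ1 ξ2 : ℝ) (hX : 0 < X + x0) (hs : 0 < su + sv)
    (h1 : -x0 ≤ ξ1) (h2 : ξ1 ≤ X) (h3 : -(su * (ξ1 + x0)) ≤ ξ2) (h4 : ξ2 ≤ sv * (ξ1 + x0)) :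
    O + ξ1 • f1 + ξ2 • f2 ∈ convexHull ℝ
      ({O - x0 • f1, O + X • f1 + (sv * (X + x0)) • f2, O + X • f1 - (su * (X + x0)) • f2} : Set V) := by
  set σ := (ξ1 + x0) / (X + x0) with hσ
  set l1 := (ξ2 / (X + x0) + σ * su) / (su + sv) with hl1
  set l2 := (σ * sv - ξ2 / (X + x0)) / (su + sv) with hl2
  have hσ0 : 0 ≤ σ := div_nonneg (by linarith) hX.le
  have hσ1 : σ ≤ 1 := by rw [hσ, div_le_one hX]; linarith
  have hσe : σ * (X + x0) = ξ1 + x0 := by rw [hσ]; field_simp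
  have hl1n : 0 ≤ l1 := by
    apply div_nonneg _ hs.le
    have : ξ2 / (X + x0) + σ * su = (ξ2 + su * (ξ1 + x0)) / (X + x0) := by
      rw [hσ]; field_simp
    rw [this]
    exact div_nonneg (by linarith) hX.le
  have hl2n : 0 ≤ l2 := by
    apply div_nonneg _ hs.le
    have : σ * sv - ξ2 / (X + x0) = (sv * (ξ1 + x0) - ξ2) / (X + x0) := by
      rw [hσ]; field_simp
    rw [this]
    exact div_nonneg (by linarith) hX.le
  have hsum : l1 + l2 = σ := by
    rw [hl1, hl2]; field_simp; ring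
  have hmem := mem_convexHull_triple (O - x0 • f1) (O + X • f1 + (sv * (X + x0)) • f2)
    (O + X • f1 - (su * (X + x0)) • f2) (1 - σ) l1 l2 (by linarith) hl1n hl2n (by linarith)
  have heq : (1 - σ) • (O - x0 • f1) + l1 • (O + X • f1 + (sv * (X + x0)) • f2)
      + l2 • (O + X • f1 - (su * (X + x0)) • f2) = O + ξ1 • f1 + ξ2 • f2 := by
    have c1 : -((1 - σ) * x0) + l1 * X + l2 * X = ξ1 := by
      have : l1 * X + l2 * X = σ * X := by rw [← add_mul, hsum]
      linarith [hσe]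
    have c2 : l1 * (sv * (X + x0)) - l2 * (su * (X + x0)) = ξ2 := by
      rw [hl1, hl2, hσ]; field_simp; ring
    have c0 : (1 - σ) + l1 + l2 = 1 := by linarith
    simp only [smul_sub, smul_add, smul_smul]
    have : (1 - σ) • O - ((1 - σ) * x0) • f1 + (l1 • O + (l1 * X) • f1 + (l1 * (sv * (X + x0))) • f2)
        + (l2 • O + (l2 * X) • f1 - (l2 * (su * (X + x0))) • f2)
        = ((1 - σ) + l1 + l2) • O + (-((1 - σ) * x0) + l1 * X + l2 * X) • f1
          + (l1 * (sv * (X + x0)) - l2 * (su * (X + x0))) • f2 := by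
      simp only [add_smul, sub_smul, neg_smul]
      abel
    rw [this, c0, c1, c2, one_smul]
  rw [heq] at hmem
  exact hmem

end Crest.Agent.S0328

namespace Crest.Agent.S0328

variable {V : Type*} [NormedAddCommGroup V] [InnerProductSpace ℝ V]

lemma affineIndependent_of_gram_pos (p q r : V) (h : 0 < gram (q - p) (r - p)) :
    AffineIndependent ℝ ![p, q, r] := by
  rw [affineIndependent_iff_not_collinear_set]
  intro hcol
  rw [collinear_iff_of_mem (p₀ := p) (by simp)] at hcol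
  obtain ⟨v, hv⟩ := hcol
  obtain ⟨r1, h1⟩ := hv q (by simp)
  obtain ⟨r2, h2⟩ := hv r (by simp)
  have e1 : q - p = r1 • v + (0:ℝ) • v := by rw [h1]; simp
  have e2 : r - p = r2 • v + (0:ℝ) • v := by rw [h2]; simp
  rw [e1, e2, gram_lin] at h
  simp at h

end Crest.Agent.S0328
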