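import Mathlib
import Crest.Agent.S0328.Gram
import Crest.Agent.S0328.Decomp
import Crest.Agent.S0328.Tri

set_option autoImplicit false

namespace Crest.Agent.S0328

open MeasureTheory

/-- The triangle area formula (supplied by the area toolkit). -/
def TriAreaFormula : Prop :=
  ∀ p q r : E3, 0 < gram (q - p) (r - p) →
    μHE[2] (convexHull ℝ ({p, q, r} : Set E3)) =
      ENNReal.ofReal (Real.sqrt (gram (q - p) (r - p)) / 2)

/-- A piece of the swept set (parameter `τ` ranging over `[t0, t1]`). -/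
def piece (e a b p₀ : E3) (L : ℝ) (R : ℝ → ℝ) (w : ℝ → E3) (t0 t1 : ℝ) : Set E3 :=
  {x | ∃ τ ∈ Set.Icc t0 t1, ∃ ρ ∈ Set.Icc 0 (R τ), ∃ s : ℝ, |s| ≤ L ∧
    x = p₀ + ρ • (a + τ • b) + s • (e + w τ)}

/-- Vertices of the covering triangle in the plane `(e + w c)^⊥`. -/
noncomputable def upP (e a b p₀ : E3) (w : ℝ → E3) (c x0 : ℝ) : E3 :=
  proj (e + w c) p₀ - x0 • proj (e + w c) (a + c • b)

noncomputable def upQ (e a b p₀ : E3) (w : ℝ → E3) (c x0 X sv : ℝ) : E3 :=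
  proj (e + w c) p₀ + X • proj (e + w c) (a + c • b) + (sv * (X + x0)) • proj (e + w c) b

noncomputable def upR (e a b p₀ : E3) (w : ℝ → E3) (c x0 X su : ℝ) : E3 :=
  proj (e + w c) p₀ + X • proj (e + w c) (a + c • b) - (su * (X + x0)) • proj (e + w c) b

lemma piece_proj_subset (e a b p₀ : E3) (he : ‖e‖ = 1) (hab : 0 < gram a b)
    (L : ℝ) (hL : 0 < L) (α β : ℝ) (R : ℝ → ℝ) (w : ℝ → E3)
    (hw : ∀ t ∈ Set.Icc α β, inner ℝ (w t) e = 0) (lam : ℝ → ℝ)
    (hw' : ∀ t ∈ Set.Icc α β, HasDerivWithinAt w (lam t • (a + t • b)) (Set.Icc α β) t)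
    (M : ℝ) (hM : ∀ t ∈ Set.Icc α β, |lam t| ≤ M)
    (t0 t1 c : ℝ) (h01 : t0 < t1) (ht0 : α ≤ t0) (ht1 : t1 ≤ β) (hc : c ∈ Set.Icc t0 t1)
    (Rup : ℝ) (hRup0 : 0 ≤ Rup) (hRup : ∀ τ ∈ Set.Icc t0 t1, R τ ≤ Rup) :
    proj (e + w c) '' piece e a b p₀ L R w t0 t1 ⊆ convexHull ℝ
      ({upP e a b p₀ w c (L * M * (t1 - t0) + Real.sqrt (t1 - t0)),
        upQ e a b p₀ w c (L * M * (t1 - t0) + Real.sqrt (t1 - t0)) (Rup + L * M * (t1 - t0))
          ((t1 - c) + L * M * (t1 - t0) * Real.sqrt (t1 - t0)),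
        upR e a b p₀ w c (L * M * (t1 - t0) + Real.sqrt (t1 - t0)) (Rup + L * M * (t1 - t0))
          ((c - t0) + L * M * (t1 - t0) * Real.sqrt (t1 - t0))} : Set E3) := by
  rintro y ⟨x, ⟨τ, hτ, ρ, hρ, s, hs, rfl⟩, rfl⟩
  have hcI : c ∈ Set.Icc α β := ⟨le_trans ht0 hc.1, le_trans hc.2 ht1⟩
  have hτI : τ ∈ Set.Icc α β := ⟨le_trans ht0 hτ.1, le_trans hτ.2 ht1⟩
  obtain ⟨A, G, hdec, hA, hG⟩ := w_decomp a b hab w lam α β hw' M hM c τ hcI hτI
  have hM0 : 0 ≤ M := le_trans (abs_nonneg _) (hM c hcI)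
  set h := t1 - t0 with hh
  have hpos : 0 < h := by rw [hh]; linarith
  set d := Real.sqrt h with hd
  have hdpos : 0 < d := Real.sqrt_pos.mpr hpos
  have hdd : d * d = h := Real.mul_self_sqrt hpos.le
  have hτc : |τ - c| ≤ h := by
    rw [abs_le]; constructor <;> linarith [hτ.1, hτ.2, hc.1, hc.2]
  have hA' : |A| ≤ M * h := le_trans hA (mul_le_mul_of_nonneg_left hτc hM0)
  have hG' : |G| ≤ M * (h * h) := by
    have : |τ - c| ^ 2 ≤ h * h := by
      rw [sq]; exact mul_le_mul hτc hτc (abs_nonneg _) hpos.le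
    exact le_trans hG (mul_le_mul_of_nonneg_left this hM0)
  have hsA : |s * A| ≤ L * M * h := by
    rw [abs_mul, mul_assoc]
    exact mul_le_mul hs hA' (abs_nonneg _) hL.le
  have hsG : |s * G| ≤ L * M * (h * h) := by
    rw [abs_mul, mul_assoc]
    exact mul_le_mul hs hG' (abs_nonneg _) hL.le
  have hn : e + w c ≠ 0 := add_ne_zero_of_orth e (w c) he (hw c hcI)
  -- rewrite the point
  have hx : p₀ + ρ • (a + τ • b) + s • (e + w τ)
      = p₀ + (ρ + s * A) • (a + c • b) + (ρ * (τ - c) + s * G) • b + s • (e + w c) := by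
    have hwτ : w τ = w c + (A • (a + c • b) + G • b) := by rw [← hdec]; abel
    rw [hwτ]
    module
  have hproj : proj (e + w c) (p₀ + ρ • (a + τ • b) + s • (e + w τ))
      = proj (e + w c) p₀ + (ρ + s * A) • proj (e + w c) (a + c • b)
        + (ρ * (τ - c) + s * G) • proj (e + w c) b := by
    rw [hx, proj_add, proj_add, proj_add, proj_smul, proj_smul, proj_smul, proj_self hn,
      smul_zero, add_zero]
  rw [hproj]
  unfold upP upQ upR
  have hLMh : 0 ≤ L * M * h := by positivity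
  have hϑ : 0 ≤ L * M * h * d := by positivity
  have hρ0 : 0 ≤ ρ := hρ.1
  have hρR : ρ ≤ Rup := le_trans hρ.2 (hRup τ hτ)
  have hsA1 := (abs_le.mp hsA).1
  have hsA2 := (abs_le.mp hsA).2
  have hsG1 := (abs_le.mp hsG).1
  have hsG2 := (abs_le.mp hsG).2
  have hu : 0 ≤ c - t0 := by linarith [hc.1]
  have hv : 0 ≤ t1 - c := by linarith [hc.2]
  apply tri_mem
  · -- 0 < X + x0
    linarith
  · -- 0 < su + sv
    have : (c - t0 + L * M * h * d) + (t1 - c + L * M * h * d) = h + 2 * (L * M * h * d) := by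
      rw [hh]; ring
    linarith
  · linarith
  · linarith
  · -- lower slope
    have key1 : (c - t0 + L * M * h * d) * (ρ + d) ≤
        (c - t0 + L * M * h * d) * (ρ + s * A + (L * M * h + d)) :=
      mul_le_mul_of_nonneg_left (by linarith) (by linarith)
    have key2 : (c - t0 + L * M * h * d) * (ρ + d) =
        (c - t0) * ρ + (c - t0) * d + L * M * h * d * ρ + L * M * (h * (d * d)) := by ring
    rw [hdd] at key2
    have k3 : 0 ≤ (c - t0) * d := mul_nonneg hu hdpos.le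
    have k4 : 0 ≤ L * M * h * d * ρ := mul_nonneg hϑ hρ0
    have k5 : -(ρ * (c - t0)) ≤ ρ * (τ - c) := by
      have : ρ * (t0 - c) ≤ ρ * (τ - c) := mul_le_mul_of_nonneg_left (by linarith [hτ.1]) hρ0
      linarith
    linarith
  · -- upper slope
    have key1 : (t1 - c + L * M * h * d) * (ρ + d) ≤
        (t1 - c + L * M * h * d) * (ρ + s * A + (L * M * h + d)) :=
      mul_le_mul_of_nonneg_left (by linarith) (by linarith)
    have key2 : (t1 - c + L * M * h * d) * (ρ + d) =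
        (t1 - c) * ρ + (t1 - c) * d + L * M * h * d * ρ + L * M * (h * (d * d)) := by ring
    rw [hdd] at key2
    have k3 : 0 ≤ (t1 - c) * d := mul_nonneg hv hdpos.le
    have k4 : 0 ≤ L * M * h * d * ρ := mul_nonneg hϑ hρ0
    have k5 : ρ * (τ - c) ≤ ρ * (t1 - c) :=
      mul_le_mul_of_nonneg_left (by linarith [hτ.2]) hρ0
    linarith

end Crest.Agent.S0328

namespace Crest.Agent.S0328

open MeasureTheory

lemma lower_subset (e a b p₀ : E3) (L : ℝ) (hL : 0 < L) (R : ℝ → ℝ) (w : ℝ → E3) (n : E3)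
    (t0 t1 c : ℝ) (h01 : t0 ≤ t1) (Rlo : ℝ) (hRlo0 : 0 ≤ Rlo)
    (hRlo : ∀ τ ∈ Set.Icc t0 t1, Rlo ≤ R τ) :
    convexHull ℝ ({proj n p₀,
        proj n p₀ + Rlo • proj n (a + c • b) - (Rlo * (c - t0)) • proj n b,
        proj n p₀ + Rlo • proj n (a + c • b) + (Rlo * (t1 - c)) • proj n b} : Set E3)
      ⊆ proj n '' piece e a b p₀ L R w t0 t1 := by
  intro y hy
  obtain ⟨a1, b1, a2, b2, ha1, hb1, hab1, ha2, hb2, hab2, rfl⟩ :=
    exists_of_mem_convexHull_triple _ _ _ y hy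
  have hτ : a2 * t0 + b2 * t1 ∈ Set.Icc t0 t1 := by
    have e2 : a2 = 1 - b2 := by linarith
    subst e2
    constructor
    · nlinarith
    · nlinarith
  refine ⟨p₀ + (b1 * Rlo) • (a + (a2 * t0 + b2 * t1) • b) + (0 : ℝ) • (e + w (a2 * t0 + b2 * t1)),
    ⟨a2 * t0 + b2 * t1, hτ, b1 * Rlo, ⟨by positivity, ?_⟩, 0, by simpa using hL.le, rfl⟩, ?_⟩
  · have h1 : b1 ≤ 1 := by linarith
    calc b1 * Rlo ≤ 1 * Rlo := mul_le_mul_of_nonneg_right h1 hRlo0
      _ = Rlo := one_mul _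
      _ ≤ R (a2 * t0 + b2 * t1) := hRlo _ hτ
  · have hsplit : a + (a2 * t0 + b2 * t1) • b = (a + c • b) + (a2 * t0 + b2 * t1 - c) • b := by
      module
    rw [zero_smul, add_zero, proj_add, proj_smul, hsplit, proj_add, proj_smul]
    have e1 : a1 = 1 - b1 := by linarith
    have e2 : a2 = 1 - b2 := by linarith
    subst e1 e2
    module

lemma gram_phi (e a b w : E3) (c : ℝ) (he : ‖e‖ = 1) (ha : inner ℝ a e = 0)
    (hb : inner ℝ b e = 0) (hw : inner ℝ w e = 0) :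
    gram (proj (e + w) (a + c • b)) (proj (e + w) b) = gram a b / (1 + ‖w‖ ^ 2) := by
  have h1 : inner ℝ (a + c • b) e = 0 := by
    rw [inner_add_left, inner_smul_left, ha, hb]; simp
  rw [gram_proj e (a + c • b) b w he h1 hb hw]
  have h2 : gram (a + c • b) b = gram a b := by
    have := gram_lin a b 1 c 0 1
    simp only [one_smul, zero_smul, zero_add, mul_one, mul_zero, sub_zero, one_pow, one_mul] at this
    exact this
  rw [h2]

lemma upper_area (harea : TriAreaFormula) (e a b p₀ : E3) (w : ℝ → E3) (c : ℝ)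
    (he : ‖e‖ = 1) (ha : inner ℝ a e = 0) (hb : inner ℝ b e = 0) (hw : inner ℝ (w c) e = 0)
    (hab : 0 < gram a b) (x0 X su sv : ℝ) (hX : 0 < X + x0) (hs : 0 < su + sv) :
    0 < gram (upQ e a b p₀ w c x0 X sv - upP e a b p₀ w c x0)
        (upR e a b p₀ w c x0 X su - upP e a b p₀ w c x0) ∧
    μHE[2] (convexHull ℝ ({upP e a b p₀ w c x0, upQ e a b p₀ w c x0 X sv,
        upR e a b p₀ w c x0 X su} : Set E3)) =
      ENNReal.ofReal (Real.sqrt (gram a b) / (2 * Real.sqrt (1 + ‖w c‖ ^ 2)) * (X + x0) ^ 2 *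
        (su + sv)) := by
  have hN : 0 < 1 + ‖w c‖ ^ 2 := by positivity
  have e1 : upQ e a b p₀ w c x0 X sv - upP e a b p₀ w c x0
      = (X + x0) • proj (e + w c) (a + c • b) + (sv * (X + x0)) • proj (e + w c) b := by
    unfold upQ upP; module
  have e2 : upR e a b p₀ w c x0 X su - upP e a b p₀ w c x0
      = (X + x0) • proj (e + w c) (a + c • b) + (-(su * (X + x0))) • proj (e + w c) b := by
    unfold upR upP; module
  have hg : gram (upQ e a b p₀ w c x0 X sv - upP e a b p₀ w c x0)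
      (upR e a b p₀ w c x0 X su - upP e a b p₀ w c x0)
      = ((X + x0) ^ 2 * (su + sv)) ^ 2 * (gram a b / (1 + ‖w c‖ ^ 2)) := by
    rw [e1, e2, gram_lin, gram_phi e a b (w c) c he ha hb hw]
    ring
  have hA : 0 < (X + x0) ^ 2 * (su + sv) := by positivity
  have hpos : 0 < gram (upQ e a b p₀ w c x0 X sv - upP e a b p₀ w c x0)
      (upR e a b p₀ w c x0 X su - upP e a b p₀ w c x0) := by
    rw [hg]; positivity
  refine ⟨hpos, ?_⟩
  rw [harea _ _ _ hpos, hg, Real.sqrt_mul (sq_nonneg _), Real.sqrt_sq hA.le,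
    Real.sqrt_div hab.le]
  congr 1
  have : Real.sqrt (1 + ‖w c‖ ^ 2) ≠ 0 := (Real.sqrt_pos.mpr hN).ne'
  field_simp

lemma lower_area (harea : TriAreaFormula) (e a b p₀ : E3) (w : ℝ → E3) (c : ℝ)
    (he : ‖e‖ = 1) (ha : inner ℝ a e = 0) (hb : inner ℝ b e = 0) (hw : inner ℝ (w c) e = 0)
    (hab : 0 < gram a b) (t0 t1 : ℝ) (h01 : t0 < t1) (Rlo : ℝ) (hRlo : 0 < Rlo) :
    μHE[2] (convexHull ℝ ({proj (e + w c) p₀,
        proj (e + w c) p₀ + Rlo • proj (e + w c) (a + c • b) - (Rlo * (c - t0)) • proj (e + w c) b,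
        proj (e + w c) p₀ + Rlo • proj (e + w c) (a + c • b) + (Rlo * (t1 - c)) • proj (e + w c) b}
          : Set E3)) =
      ENNReal.ofReal (Real.sqrt (gram a b) / (2 * Real.sqrt (1 + ‖w c‖ ^ 2)) * Rlo ^ 2 *
        (t1 - t0)) := by
  have hN : 0 < 1 + ‖w c‖ ^ 2 := by positivity
  set O := proj (e + w c) p₀
  set φ1 := proj (e + w c) (a + c • b)
  set φ2 := proj (e + w c) b
  have e1 : (O + Rlo • φ1 - (Rlo * (c - t0)) • φ2) - O = Rlo • φ1 + (-(Rlo * (c - t0))) • φ2 := by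
    module
  have e2 : (O + Rlo • φ1 + (Rlo * (t1 - c)) • φ2) - O = Rlo • φ1 + (Rlo * (t1 - c)) • φ2 := by
    module
  have hg : gram ((O + Rlo • φ1 - (Rlo * (c - t0)) • φ2) - O)
      ((O + Rlo • φ1 + (Rlo * (t1 - c)) • φ2) - O)
      = (Rlo ^ 2 * (t1 - t0)) ^ 2 * (gram a b / (1 + ‖w c‖ ^ 2)) := by
    rw [e1, e2, gram_lin, gram_phi e a b (w c) c he ha hb hw]
    ring
  have hA : 0 < Rlo ^ 2 * (t1 - t0) := by
    have : 0 < t1 - t0 := by linarith
    positivity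
  have hpos : 0 < gram ((O + Rlo • φ1 - (Rlo * (c - t0)) • φ2) - O)
      ((O + Rlo • φ1 + (Rlo * (t1 - c)) • φ2) - O) := by
    rw [hg]; positivity
  rw [harea _ _ _ hpos, hg, Real.sqrt_mul (sq_nonneg _), Real.sqrt_sq hA.le,
    Real.sqrt_div hab.le]
  congr 1
  have : Real.sqrt (1 + ‖w c‖ ^ 2) ≠ 0 := (Real.sqrt_pos.mpr hN).ne'
  field_simp

end Crest.Agent.S0328

namespace Crest.Agent.S0328

open MeasureTheory

/-- The per-piece statement: a covering triangle with explicit area, and a lower bound for the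
area of the projected piece. -/
lemma piece_main (harea : TriAreaFormula) (e a b p₀ : E3) (he : ‖e‖ = 1)
    (ha : inner ℝ a e = 0) (hb : inner ℝ b e = 0) (hab : 0 < gram a b)
    (L : ℝ) (hL : 0 < L) (α β : ℝ) (R : ℝ → ℝ) (w : ℝ → E3)
    (hw : ∀ t ∈ Set.Icc α β, inner ℝ (w t) e = 0) (lam : ℝ → ℝ)
    (hw' : ∀ t ∈ Set.Icc α β, HasDerivWithinAt w (lam t • (a + t • b)) (Set.Icc α β) t)
    (M : ℝ) (hM : ∀ t ∈ Set.Icc α β, |lam t| ≤ M)
    (t0 t1 c : ℝ) (h01 : t0 < t1) (ht0 : α ≤ t0) (ht1 : t1 ≤ β) (hc : c ∈ Set.Icc t0 t1)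
    (Rup : ℝ) (hRup0 : 0 ≤ Rup) (hRup : ∀ τ ∈ Set.Icc t0 t1, R τ ≤ Rup)
    (Rlo : ℝ) (hRlo0 : 0 ≤ Rlo) (hRlo : ∀ τ ∈ Set.Icc t0 t1, Rlo ≤ R τ) :
    ∃ p q r : E3,
      (inner ℝ p (e + w c) = 0 ∧ inner ℝ q (e + w c) = 0 ∧ inner ℝ r (e + w c) = 0) ∧
      AffineIndependent ℝ ![p, q, r] ∧
      proj (e + w c) '' piece e a b p₀ L R w t0 t1 ⊆ convexHull ℝ ({p, q, r} : Set E3) ∧
      μHE[2] (convexHull ℝ ({p, q, r} : Set E3)) =
        ENNReal.ofReal (Real.sqrt (gram a b) / (2 * Real.sqrt (1 + ‖w c‖ ^ 2)) *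
          (Rup + 2 * L * M * (t1 - t0) + Real.sqrt (t1 - t0)) ^ 2 *
          ((t1 - t0) + 2 * L * M * (t1 - t0) * Real.sqrt (t1 - t0))) ∧
      ENNReal.ofReal (Real.sqrt (gram a b) / (2 * Real.sqrt (1 + ‖w c‖ ^ 2)) * Rlo ^ 2 *
          (t1 - t0)) ≤ μHE[2] (proj (e + w c) '' piece e a b p₀ L R w t0 t1) := by
  have hcI : c ∈ Set.Icc α β := ⟨le_trans ht0 hc.1, le_trans hc.2 ht1⟩
  have hM0 : 0 ≤ M := le_trans (abs_nonneg _) (hM c hcI)
  have hwc : inner ℝ (w c) e = 0 := hw c hcI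
  have hn : e + w c ≠ 0 := add_ne_zero_of_orth e (w c) he hwc
  have hpos : 0 < t1 - t0 := by linarith
  have hdpos : 0 < Real.sqrt (t1 - t0) := Real.sqrt_pos.mpr hpos
  set x0 := L * M * (t1 - t0) + Real.sqrt (t1 - t0) with hx0
  set X := Rup + L * M * (t1 - t0) with hXdef
  set sv := (t1 - c) + L * M * (t1 - t0) * Real.sqrt (t1 - t0) with hsv
  set su := (c - t0) + L * M * (t1 - t0) * Real.sqrt (t1 - t0) with hsu
  have hLMh : 0 ≤ L * M * (t1 - t0) := by positivity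
  have hX : 0 < X + x0 := by rw [hXdef, hx0]; linarith
  have hs : 0 < su + sv := by
    have h1 : 0 ≤ L * M * (t1 - t0) * Real.sqrt (t1 - t0) := by positivity
    have : su + sv = (t1 - t0) + 2 * (L * M * (t1 - t0) * Real.sqrt (t1 - t0)) := by
      rw [hsu, hsv]; ring
    rw [this]; linarith
  obtain ⟨hgpos, hmeas⟩ := upper_area harea e a b p₀ w c he ha hb hwc hab x0 X su sv hX hs
  refine ⟨upP e a b p₀ w c x0, upQ e a b p₀ w c x0 X sv, upR e a b p₀ w c x0 X su,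
    ⟨?_, ?_, ?_⟩, affineIndependent_of_gram_pos _ _ _ hgpos, ?_, ?_, ?_⟩
  · unfold upP
    rw [inner_sub_left, inner_smul_left, proj_inner hn, proj_inner hn]; simp
  · unfold upQ
    rw [inner_add_left, inner_add_left, inner_smul_left, inner_smul_left, proj_inner hn,
      proj_inner hn, proj_inner hn]; simp
  · unfold upR
    rw [inner_sub_left, inner_add_left, inner_smul_left, inner_smul_left, proj_inner hn,
      proj_inner hn, proj_inner hn]; simp
  · exact piece_proj_subset e a b p₀ he hab L hL α β R w hw lam hw' M hM t0 t1 c h01 ht0 ht1 hc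
      Rup hRup0 hRup
  · rw [hmeas]
    congr 1
    rw [hXdef, hx0, hsu, hsv]
    ring
  · rcases hRlo0.eq_or_lt with h0 | h0
    · rw [← h0]; simp
    · rw [← lower_area harea e a b p₀ w c he ha hb hwc hab t0 t1 h01 Rlo h0]
      exact measure_mono (lower_subset e a b p₀ L hL R w (e + w c) t0 t1 c h01.le Rlo hRlo0 hRlo)

end Crest.Agent.S0328
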