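import Mathlib

/-!
Row 211, WP-B (S0328): tagged Riemann sums over a finite partition `t : Fin (N+1) → ℝ`.
-/

set_option autoImplicit false
open MeasureTheory Set

namespace Crest.Agent.S0328

/-- Extension of a finite partition to a sequence (constant `0` beyond the end). -/
noncomputable def rsExt {N : ℕ} (t : Fin (N + 1) → ℝ) (k : ℕ) : ℝ :=
  if h : k < N + 1 then t ⟨k, h⟩ else 0

lemma rsExt_castSucc {N : ℕ} (t : Fin (N + 1) → ℝ) (i : Fin N) :
    rsExt t (i : ℕ) = t i.castSucc := by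
  unfold rsExt
  rw [dif_pos (by omega)]
  rfl

lemma rsExt_succ {N : ℕ} (t : Fin (N + 1) → ℝ) (i : Fin N) :
    rsExt t ((i : ℕ) + 1) = t i.succ := by
  unfold rsExt
  rw [dif_pos (by omega)]
  rfl

lemma rsExt_zero {N : ℕ} (t : Fin (N + 1) → ℝ) : rsExt t 0 = t 0 := by
  unfold rsExt
  rw [dif_pos (by omega)]
  rfl

lemma rsExt_last {N : ℕ} (t : Fin (N + 1) → ℝ) : rsExt t N = t (Fin.last N) := by
  unfold rsExt
  rw [dif_pos (by omega)]
  rfl

/-- Telescoping sum of the widths of a partition. -/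
lemma sum_mesh {N : ℕ} (t : Fin (N + 1) → ℝ) :
    ∑ i : Fin N, (t i.succ - t i.castSucc) = t (Fin.last N) - t 0 := by
  have h := Finset.sum_range_sub (rsExt t) N
  rw [Finset.sum_range] at h
  rw [← rsExt_last t, ← rsExt_zero t, ← h]
  refine Finset.sum_congr rfl (fun i _ => ?_)
  rw [rsExt_succ, rsExt_castSucc]

/-- Points of a strictly monotone partition lie in `[t 0, t last]`. -/
lemma rs_partition_mem_Icc {N : ℕ} (t : Fin (N + 1) → ℝ) (ht : StrictMono t) (j : Fin (N + 1)) :
    t j ∈ Icc (t 0) (t (Fin.last N)) :=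
  ⟨ht.monotone (Fin.zero_le j), ht.monotone (Fin.le_last j)⟩

lemma rs_piece_subset {N : ℕ} (t : Fin (N + 1) → ℝ) (ht : StrictMono t) (i : Fin N) :
    Icc (t i.castSucc) (t i.succ) ⊆ Icc (t 0) (t (Fin.last N)) :=
  Icc_subset_Icc (rs_partition_mem_Icc t ht _).1 (rs_partition_mem_Icc t ht _).2

lemma rs_piece_lt {N : ℕ} (t : Fin (N + 1) → ℝ) (ht : StrictMono t) (i : Fin N) :
    t i.castSucc < t i.succ := ht (Fin.castSucc_lt_succ)

/-- The integral over `[t 0, t last]` is the sum of the integrals over the pieces. -/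
lemma rs_sum_integral_pieces {N : ℕ} (t : Fin (N + 1) → ℝ) (ht : StrictMono t) (f : ℝ → ℝ)
    (hf : ContinuousOn f (Icc (t 0) (t (Fin.last N)))) :
    ∑ i : Fin N, ∫ τ in (t i.castSucc)..(t i.succ), f τ = ∫ τ in (t 0)..(t (Fin.last N)), f τ := by
  have hint : ∀ k < N, IntervalIntegrable f volume (rsExt t k) (rsExt t (k + 1)) := by
    intro k hk
    have h1 := rsExt_castSucc t ⟨k, hk⟩
    have h2 := rsExt_succ t ⟨k, hk⟩
    simp only at h1 h2
    rw [h1, h2]
    apply ContinuousOn.intervalIntegrable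
    rw [uIcc_of_le (rs_piece_lt t ht ⟨k, hk⟩).le]
    exact hf.mono (rs_piece_subset t ht ⟨k, hk⟩)
  have h := intervalIntegral.sum_integral_adjacent_intervals hint
  rw [Finset.sum_range] at h
  rw [← rsExt_last t, ← rsExt_zero t, ← h]
  refine Finset.sum_congr rfl (fun i _ => ?_)
  rw [rsExt_succ, rsExt_castSucc]

/-- Riemann-sum estimate from an oscillation bound on each piece. -/
lemma riemann_sum_sub_integral_le {N : ℕ} (t : Fin (N + 1) → ℝ) (ht : StrictMono t) (c : Fin N → ℝ)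
    (f : ℝ → ℝ) (hf : ContinuousOn f (Icc (t 0) (t (Fin.last N)))) (θ : ℝ)
    (hosc : ∀ i : Fin N, ∀ x ∈ Icc (t i.castSucc) (t i.succ), |f x - f (c i)| ≤ θ) :
    |∑ i : Fin N, f (c i) * (t i.succ - t i.castSucc) - ∫ τ in (t 0)..(t (Fin.last N)), f τ|
      ≤ θ * (t (Fin.last N) - t 0) := by
  rw [← rs_sum_integral_pieces t ht f hf, ← Finset.sum_sub_distrib, ← sum_mesh, Finset.mul_sum]
  refine (Finset.abs_sum_le_sum_abs _ _).trans (Finset.sum_le_sum (fun i _ => ?_))
  have hle := (rs_piece_lt t ht i).le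
  have hfi : IntervalIntegrable f volume (t i.castSucc) (t i.succ) := by
    apply ContinuousOn.intervalIntegrable
    rw [uIcc_of_le hle]
    exact hf.mono (rs_piece_subset t ht i)
  have hconst : f (c i) * (t i.succ - t i.castSucc) = ∫ τ in (t i.castSucc)..(t i.succ), f (c i) := by
    rw [intervalIntegral.integral_const, smul_eq_mul, mul_comm]
  rw [hconst, ← intervalIntegral.integral_sub intervalIntegrable_const hfi]
  have hb := intervalIntegral.norm_integral_le_of_norm_le_const (a := t i.castSucc) (b := t i.succ)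
    (f := fun τ => f (c i) - f τ) (C := θ) (by
      intro x hx
      rw [uIoc_of_le hle] at hx
      rw [Real.norm_eq_abs, abs_sub_comm]
      exact hosc i x ⟨hx.1.le, hx.2⟩)
  rw [Real.norm_eq_abs, abs_of_nonneg (sub_nonneg.mpr hle)] at hb
  exact hb

/-- Uniform continuity on a compact interval, in `≤` form. -/
lemma exists_delta_osc (f : ℝ → ℝ) (α β : ℝ) (hf : ContinuousOn f (Icc α β)) (θ : ℝ) (hθ : 0 < θ) :
    ∃ δ : ℝ, 0 < δ ∧ ∀ x ∈ Icc α β, ∀ y ∈ Icc α β, |x - y| ≤ δ → |f x - f y| ≤ θ := by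
  have huc : UniformContinuousOn f (Icc α β) := isCompact_Icc.uniformContinuousOn_of_continuous hf
  rw [Metric.uniformContinuousOn_iff] at huc
  obtain ⟨δ, hδ, h⟩ := huc θ hθ
  refine ⟨δ / 2, by positivity, fun x hx y hy hxy => ?_⟩
  have := h x hx y hy (by rw [Real.dist_eq]; linarith)
  rw [Real.dist_eq] at this
  exact this.le

/-- Tagged Riemann sums of a continuous function converge to the integral, uniformly over
tagged partitions of small mesh. -/
theorem riemann_sum_tendsto (f : ℝ → ℝ) (α β : ℝ) (hf : ContinuousOn f (Icc α β))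
    (θ : ℝ) (hθ : 0 < θ) :
    ∃ δ : ℝ, 0 < δ ∧ ∀ (N : ℕ) (t : Fin (N + 1) → ℝ) (c : Fin N → ℝ),
      StrictMono t → t 0 = α → t (Fin.last N) = β →
      (∀ i : Fin N, t i.succ - t i.castSucc ≤ δ) →
      (∀ i : Fin N, t i.castSucc ≤ c i ∧ c i ≤ t i.succ) →
      |∑ i : Fin N, f (c i) * (t i.succ - t i.castSucc) - ∫ τ in α..β, f τ| ≤ θ := by
  by_cases hαβ : α < β
  · have hpos : 0 < β - α := sub_pos.mpr hαβ
    obtain ⟨δ, hδ, h⟩ := exists_delta_osc f α β hf (θ / (β - α)) (by positivity)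
    refine ⟨δ, hδ, fun N t c ht h0 hN hmesh htag => ?_⟩
    subst h0 hN
    have := riemann_sum_sub_integral_le t ht c f hf (θ / (t (Fin.last N) - t 0)) (by
      intro i x hx
      have hxI := rs_piece_subset t ht i hx
      have hcI := rs_piece_subset t ht i ⟨(htag i).1, (htag i).2⟩
      apply h x hxI (c i) hcI
      rw [abs_le]
      have := hmesh i
      constructor <;> linarith [hx.1, hx.2, (htag i).1, (htag i).2])
    rwa [div_mul_cancel₀ _ hpos.ne'] at this
  · refine ⟨1, one_pos, fun N t c ht h0 hN hmesh htag => ?_⟩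
    subst h0 hN
    have hle : t 0 ≤ t (Fin.last N) := ht.monotone (Fin.zero_le _)
    have heq : t (Fin.last N) = t 0 := le_antisymm (not_lt.mp hαβ) hle
    have hN0 : N = 0 := by
      by_contra hne
      have : (0 : Fin (N + 1)) < Fin.last N := by
        rw [Fin.lt_def]; simp; omega
      exact absurd heq (ne_of_gt (ht this))
    subst hN0
    simp [hθ.le]

/-- (RS2) Telescoping sum of the widths, with explicit `N`. -/
theorem sum_widths (N : ℕ) (t : Fin (N + 1) → ℝ) :
    ∑ i : Fin N, (t i.succ - t i.castSucc) = t (Fin.last N) - t 0 :=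
  sum_mesh t

/-- (RS1) Riemann sums versus the integral, from an oscillation modulus `(δ, ε)`. -/
theorem riemann_osc (F : ℝ → ℝ) (α β : ℝ) (hαβ : α ≤ β) (hF : ContinuousOn F (Set.Icc α β))
    (ε δ : ℝ)
    (hosc : ∀ x ∈ Set.Icc α β, ∀ y ∈ Set.Icc α β, |x - y| ≤ δ → |F x - F y| ≤ ε)
    (N : ℕ) (t : Fin (N + 1) → ℝ) (c : Fin N → ℝ) (ht : StrictMono t) (h0 : t 0 = α)
    (hN : t (Fin.last N) = β) (hmesh : ∀ i : Fin N, t i.succ - t i.castSucc ≤ δ)
    (hc : ∀ i : Fin N, t i.castSucc ≤ c i ∧ c i ≤ t i.succ) :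
    |(∑ i : Fin N, F (c i) * (t i.succ - t i.castSucc)) - ∫ τ in α..β, F τ| ≤ ε * (β - α) := by
  have _ := hαβ
  subst h0 hN
  refine riemann_sum_sub_integral_le t ht c F hF ε (fun i x hx => ?_)
  have hxI := rs_piece_subset t ht i hx
  have hcI := rs_piece_subset t ht i ⟨(hc i).1, (hc i).2⟩
  apply hosc x hxI (c i) hcI
  rw [abs_le]
  have := hmesh i
  constructor <;> linarith [hx.1, hx.2, (hc i).1, (hc i).2]

/-- (RS3) Every point of `[t 0, t last]` lies in some piece. -/
theorem partition_cover (N : ℕ) (t : Fin (N + 1) → ℝ) (ht : StrictMono t) (τ : ℝ)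
    (h0 : t 0 ≤ τ) (h1 : τ ≤ t (Fin.last N)) (hlt : t 0 < t (Fin.last N)) :
    ∃ i : Fin N, τ ∈ Set.Icc (t i.castSucc) (t i.succ) := by
  have _ := ht
  have hN : 0 < N := by
    rcases Nat.eq_zero_or_pos N with h | h
    · subst h
      exact absurd hlt (lt_irrefl _)
    · exact h
  have hex : ∃ k, τ ≤ rsExt t (k + 1) := by
    refine ⟨N - 1, ?_⟩
    have : N - 1 + 1 = N := by omega
    rw [this, rsExt_last]
    exact h1
  classical
  have hk := Nat.find_spec hex
  have hkle : Nat.find hex ≤ N - 1 := Nat.find_min' hex (by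
    have : N - 1 + 1 = N := by omega
    rw [this, rsExt_last]
    exact h1)
  have hkN : Nat.find hex < N := by omega
  refine ⟨⟨Nat.find hex, hkN⟩, ?_, ?_⟩
  · rw [← rsExt_castSucc t ⟨Nat.find hex, hkN⟩]
    show rsExt t (Nat.find hex) ≤ τ
    rcases Nat.eq_zero_or_pos (Nat.find hex) with h | h
    · rw [h, rsExt_zero]; exact h0
    · have hmin := Nat.find_min hex (m := Nat.find hex - 1) (by omega)
      have : Nat.find hex - 1 + 1 = Nat.find hex := by omega
      rw [this] at hmin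
      exact (not_le.mp hmin).le
  · rw [← rsExt_succ t ⟨Nat.find hex, hkN⟩]
    exact hk

end Crest.Agent.S0328
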