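import Mathlib
import Crest.Agent.S0328.Piece
import Crest.Agent.S0328.Bounds
import Crest.Agent.S0328.Riemann

set_option autoImplicit false

namespace Crest.Agent.S0328

open MeasureTheory

/-- Positivity of the Gram determinant of two linearly independent vectors. -/
lemma gram_pos_of_linearIndependent (a b : E3) (hab : LinearIndependent ℝ ![a, b]) :
    0 < gram a b := by
  rcases (gram_nonneg a b).lt_or_eq with h | h
  · exact h
  · exfalso
    have hb0 : b ≠ 0 := by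
      have := hab.ne_zero 1
      simpa using this
    have key : ‖(‖b‖ ^ 2) • a - (inner ℝ a b) • b‖ ^ 2 = ‖b‖ ^ 2 * gram a b := by
      rw [← real_inner_self_eq_norm_sq]
      simp only [inner_sub_left, inner_sub_right, inner_smul_left, inner_smul_right,
        real_inner_self_eq_norm_sq, RCLike.conj_to_real]
      rw [real_inner_comm a b]
      unfold gram
      ring
    have hz : (‖b‖ ^ 2) • a - (inner ℝ a b) • b = 0 := by
      rw [← h, mul_zero] at key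
      simpa using key
    have h2 := (LinearIndependent.pair_iff.mp hab) (‖b‖ ^ 2) (-(inner ℝ a b))
      (by rw [neg_smul, ← sub_eq_add_neg]; exact hz)
    have h3 : ‖b‖ ^ 2 = 0 := h2.1
    exact hb0 (by simpa using h3)

/-- Per-piece statement in real-number form. -/
lemma piece_real (harea : TriAreaFormula) (e a b p₀ : E3) (he : ‖e‖ = 1)
    (ha : inner ℝ a e = 0) (hb : inner ℝ b e = 0) (hab : 0 < gram a b)
    (L : ℝ) (hL : 0 < L) (α β : ℝ) (R : ℝ → ℝ) (w : ℝ → E3)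
    (hw : ∀ t ∈ Set.Icc α β, inner ℝ (w t) e = 0) (lam : ℝ → ℝ)
    (hw' : ∀ t ∈ Set.Icc α β, HasDerivWithinAt w (lam t • (a + t • b)) (Set.Icc α β) t)
    (M : ℝ) (hM : ∀ t ∈ Set.Icc α β, |lam t| ≤ M)
    (t0 t1 c : ℝ) (h01 : t0 < t1) (ht0 : α ≤ t0) (ht1 : t1 ≤ β) (hc : c ∈ Set.Icc t0 t1)
    (Rbar θ : ℝ) (hθ0 : 0 < θ) (hθ1 : θ ≤ 1) (hhθ : t1 - t0 ≤ θ ^ 2)
    (hR0 : ∀ τ ∈ Set.Icc t0 t1, 0 ≤ R τ) (hRb : R c ≤ Rbar)
    (hosc : ∀ τ ∈ Set.Icc t0 t1, |R τ - R c| ≤ θ) :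
    ∃ p q r : E3,
      (inner ℝ p (e + w c) = 0 ∧ inner ℝ q (e + w c) = 0 ∧ inner ℝ r (e + w c) = 0) ∧
      AffineIndependent ℝ ![p, q, r] ∧
      proj (e + w c) '' piece e a b p₀ L R w t0 t1 ⊆ convexHull ℝ ({p, q, r} : Set E3) ∧
      Real.sqrt (gram a b) * (R c ^ 2 / (2 * Real.sqrt (1 + ‖w c‖ ^ 2))) * (t1 - t0) ≤
        (μHE[2] (convexHull ℝ ({p, q, r} : Set E3))).toReal ∧
      (μHE[2] (convexHull ℝ ({p, q, r} : Set E3))).toReal ≤
        Real.sqrt (gram a b) * (R c ^ 2 / (2 * Real.sqrt (1 + ‖w c‖ ^ 2))) * (t1 - t0) +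
          Real.sqrt (gram a b) / 2 * (θ * (Rbar ^ 2 * (2 + 2 * (L * M)) +
            (2 * Rbar * (2 + 2 * (L * M)) + (2 + 2 * (L * M)) ^ 2) * (1 + (2 + 2 * (L * M))))) *
            (t1 - t0) ∧
      Real.sqrt (gram a b) * (R c ^ 2 / (2 * Real.sqrt (1 + ‖w c‖ ^ 2))) * (t1 - t0) -
          Real.sqrt (gram a b) / 2 * (2 * Rbar * θ) * (t1 - t0) ≤
        (μHE[2] (proj (e + w c) '' piece e a b p₀ L R w t0 t1)).toReal ∧
      (μHE[2] (proj (e + w c) '' piece e a b p₀ L R w t0 t1)).toReal ≤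
        (μHE[2] (convexHull ℝ ({p, q, r} : Set E3))).toReal := by
  have hcI : c ∈ Set.Icc α β := ⟨le_trans ht0 hc.1, le_trans hc.2 ht1⟩
  have hM0 : 0 ≤ M := le_trans (abs_nonneg _) (hM c hcI)
  have hRc0 : 0 ≤ R c := hR0 c hc
  have hh : 0 < t1 - t0 := sub_pos.mpr h01
  have hLM0 : 0 ≤ L * M := by positivity
  obtain ⟨p, q, r, hperp, haff, hsub, hmeas, hlow⟩ :=
    piece_main harea e a b p₀ he ha hb hab L hL α β R w hw lam hw' M hM t0 t1 c h01 ht0 ht1 hc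
      (R c + θ) (by linarith)
      (fun τ hτ => by have := (abs_le.mp (hosc τ hτ)).2; linarith)
      (max (R c - θ) 0) (le_max_right _ _)
      (fun τ hτ => max_le (by have := (abs_le.mp (hosc τ hτ)).1; linarith) (hR0 τ hτ))
  refine ⟨p, q, r, hperp, haff, hsub, ?_⟩
  obtain ⟨hA1, hA2⟩ := area_factor_bounds (R c) Rbar θ (t1 - t0) (L * M) hRc0 hRb hθ0 hθ1 hh hhθ
    hLM0
  obtain ⟨hl0, hl1, hl2⟩ := lower_radius_bounds (R c) Rbar θ hRc0 hRb hθ0
  have hκ0 : 0 ≤ Real.sqrt (gram a b) := Real.sqrt_nonneg _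
  have hs1 : 1 ≤ Real.sqrt (1 + ‖w c‖ ^ 2) := by
    rw [Real.le_sqrt' (by norm_num)]
    nlinarith [sq_nonneg ‖w c‖]
  have hspos : 0 < Real.sqrt (1 + ‖w c‖ ^ 2) := by linarith
  have hG0 : 0 ≤ Real.sqrt (gram a b) / (2 * Real.sqrt (1 + ‖w c‖ ^ 2)) := by positivity
  have hG2 : Real.sqrt (gram a b) / (2 * Real.sqrt (1 + ‖w c‖ ^ 2)) ≤ Real.sqrt (gram a b) / 2 := by
    apply div_le_div_of_nonneg_left hκ0 (by norm_num) (by linarith)
  have hGeq : Real.sqrt (gram a b) * (R c ^ 2 / (2 * Real.sqrt (1 + ‖w c‖ ^ 2))) * (t1 - t0)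
      = Real.sqrt (gram a b) / (2 * Real.sqrt (1 + ‖w c‖ ^ 2)) * (R c ^ 2 * (t1 - t0)) := by
    field_simp
  rw [hGeq]
  have hUeq : (μHE[2] (convexHull ℝ ({p, q, r} : Set E3))).toReal =
      Real.sqrt (gram a b) / (2 * Real.sqrt (1 + ‖w c‖ ^ 2)) *
        ((R c + θ + 2 * (L * M) * (t1 - t0) + Real.sqrt (t1 - t0)) ^ 2 *
          ((t1 - t0) + 2 * (L * M) * (t1 - t0) * Real.sqrt (t1 - t0))) := by
    rw [hmeas, ENNReal.toReal_ofReal]
    · ring
    · have h1 : 0 ≤ (R c + θ + 2 * L * M * (t1 - t0) + Real.sqrt (t1 - t0)) ^ 2 := sq_nonneg _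
      have h2 : 0 ≤ t1 - t0 + 2 * L * M * (t1 - t0) * Real.sqrt (t1 - t0) := by
        have : 0 ≤ 2 * L * M * (t1 - t0) * Real.sqrt (t1 - t0) := by
          have := Real.sqrt_nonneg (t1 - t0)
          have h3 : 0 ≤ 2 * L * M := mul_nonneg (mul_nonneg (by norm_num) hL.le) hM0
          exact mul_nonneg (mul_nonneg h3 hh.le) this
        linarith
      exact mul_nonneg (mul_nonneg hG0 h1) h2
  have hne : μHE[2] (convexHull ℝ ({p, q, r} : Set E3)) ≠ ⊤ := by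
    rw [hmeas]; exact ENNReal.ofReal_ne_top
  have hmono : μHE[2] (proj (e + w c) '' piece e a b p₀ L R w t0 t1) ≤
      μHE[2] (convexHull ℝ ({p, q, r} : Set E3)) := measure_mono hsub
  have hne' : μHE[2] (proj (e + w c) '' piece e a b p₀ L R w t0 t1) ≠ ⊤ :=
    ne_top_of_le_ne_top hne hmono
  have hlow' : Real.sqrt (gram a b) / (2 * Real.sqrt (1 + ‖w c‖ ^ 2)) * max (R c - θ) 0 ^ 2 *
      (t1 - t0) ≤ (μHE[2] (proj (e + w c) '' piece e a b p₀ L R w t0 t1)).toReal :=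
    (ENNReal.ofReal_le_iff_le_toReal hne').mp hlow
  rw [hUeq]
  have hRbar0 : 0 ≤ Rbar := le_trans hRc0 hRb
  have hK10 : 0 ≤ (Rbar ^ 2 * (2 + 2 * (L * M)) +
            (2 * Rbar * (2 + 2 * (L * M)) + (2 + 2 * (L * M)) ^ 2) * (1 + (2 + 2 * (L * M)))) := by
    positivity
  generalize Real.sqrt (gram a b) / (2 * Real.sqrt (1 + ‖w c‖ ^ 2)) = G at *
  generalize Real.sqrt (gram a b) / 2 = G2 at *
  generalize (R c + θ + 2 * (L * M) * (t1 - t0) + Real.sqrt (t1 - t0)) ^ 2 *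
          ((t1 - t0) + 2 * (L * M) * (t1 - t0) * Real.sqrt (t1 - t0)) = A at *
  generalize (Rbar ^ 2 * (2 + 2 * (L * M)) +
            (2 * Rbar * (2 + 2 * (L * M)) + (2 + 2 * (L * M)) ^ 2) * (1 + (2 + 2 * (L * M)))) = K1
    at *
  generalize max (R c - θ) 0 = Rlo at *
  generalize t1 - t0 = h at *
  refine ⟨mul_le_mul_of_nonneg_left hA1 hG0, ?_, ?_,
    le_of_le_of_eq (ENNReal.toReal_mono hne hmono) hUeq⟩
  · have h1 : G * A ≤ G * (R c ^ 2 * h + θ * K1 * h) := mul_le_mul_of_nonneg_left hA2 hG0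
    have h2 : G * (θ * K1 * h) ≤ G2 * (θ * K1 * h) :=
      mul_le_mul_of_nonneg_right hG2 (by positivity)
    linarith
  · have h1 : G * ((R c ^ 2 - 2 * Rbar * θ) * h) ≤ G * (Rlo ^ 2 * h) :=
      mul_le_mul_of_nonneg_left (mul_le_mul_of_nonneg_right hl2 hh.le) hG0
    have h2 : G * (2 * Rbar * θ * h) ≤ G2 * (2 * Rbar * θ * h) :=
      mul_le_mul_of_nonneg_right hG2 (by positivity)
    linarith [hlow']

/-- The radial sweep theorem, modulo the triangle area formula, in terms of `piece`/`proj`/`gram`. -/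
theorem main (harea : TriAreaFormula)
    (e a b p₀ : E3) (he : ‖e‖ = 1)
    (ha : inner ℝ a e = 0) (hb : inner ℝ b e = 0)
    (hab : LinearIndependent ℝ ![a, b]) (L : ℝ) (hL : 0 < L) (α β : ℝ) (hαβ : α < β)
    (R : ℝ → ℝ) (hR : ContinuousOn R (Set.Icc α β)) (hR0 : ∀ t ∈ Set.Icc α β, 0 ≤ R t)
    (w : ℝ → E3) (hw : ∀ t ∈ Set.Icc α β, inner ℝ (w t) e = 0)
    (lam : ℝ → ℝ) (hlam : ContinuousOn lam (Set.Icc α β))
    (hw' : ∀ t ∈ Set.Icc α β, HasDerivWithinAt w (lam t • (a + t • b)) (Set.Icc α β) t)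
    (η : ℝ) (hη : 0 < η) :
    ∃ δ : ℝ, 0 < δ ∧ ∀ (N : ℕ) (t : Fin (N + 1) → ℝ) (c : Fin N → ℝ),
      StrictMono t → t 0 = α → t (Fin.last N) = β →
      (∀ i : Fin N, t i.succ - t i.castSucc ≤ δ) →
      (∀ i : Fin N, t i.castSucc ≤ c i ∧ c i ≤ t i.succ) →
      (∃ (p q r : Fin N → E3),
        (∀ i, inner ℝ (p i) (e + w (c i)) = 0 ∧ inner ℝ (q i) (e + w (c i)) = 0 ∧
          inner ℝ (r i) (e + w (c i)) = 0) ∧
        (∀ i, AffineIndependent ℝ ![p i, q i, r i]) ∧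
        piece e a b p₀ L R w α β ⊆
          ⋃ i, {x : E3 | ∃ y ∈ convexHull ℝ {p i, q i, r i}, ∃ σ : ℝ,
            x = y + σ • (e + w (c i))} ∧
        |(∑ i, (μHE[2] (convexHull ℝ ({p i, q i, r i} : Set E3))).toReal) -
            Real.sqrt (gram a b) *
              ∫ τ in α..β, R τ ^ 2 / (2 * Real.sqrt (1 + ‖w τ‖ ^ 2))| ≤ η) ∧
      |(∑ i : Fin N, (μHE[2] (proj (e + w (c i)) ''
            piece e a b p₀ L R w (t i.castSucc) (t i.succ))).toReal) -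
          Real.sqrt (gram a b) *
            ∫ τ in α..β, R τ ^ 2 / (2 * Real.sqrt (1 + ‖w τ‖ ^ 2))| ≤ η := by
  have hgram : 0 < gram a b := gram_pos_of_linearIndependent a b hab
  have hκpos : 0 < Real.sqrt (gram a b) := Real.sqrt_pos.mpr hgram
  obtain ⟨M, hM⟩ := isCompact_Icc.exists_bound_of_continuousOn hlam
  obtain ⟨Rbar, hRbar⟩ := isCompact_Icc.exists_bound_of_continuousOn hR
  have hαI : α ∈ Set.Icc α β := ⟨le_refl _, hαβ.le⟩
  have hM0 : 0 ≤ M := le_trans (norm_nonneg _) (hM α hαI)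
  have hRbar0 : 0 ≤ Rbar := le_trans (norm_nonneg _) (hRbar α hαI)
  have hM' : ∀ t ∈ Set.Icc α β, |lam t| ≤ M := fun t ht => by
    have := hM t ht
    rwa [Real.norm_eq_abs] at this
  have hRb : ∀ t ∈ Set.Icc α β, R t ≤ Rbar := fun t ht => by
    have := hRbar t ht
    rw [Real.norm_eq_abs] at this
    exact le_trans (le_abs_self _) this
  have hwc : ContinuousOn w (Set.Icc α β) := fun t ht => (hw' t ht).continuousWithinAt
  have hFc : ContinuousOn (fun τ => R τ ^ 2 / (2 * Real.sqrt (1 + ‖w τ‖ ^ 2))) (Set.Icc α β) := by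
    apply ContinuousOn.div (hR.pow 2)
    · exact continuousOn_const.mul
        (Real.continuous_sqrt.comp_continuousOn (continuousOn_const.add (hwc.norm.pow 2)))
    · intro t _
      have : 0 < Real.sqrt (1 + ‖w t‖ ^ 2) := Real.sqrt_pos.mpr (by positivity)
      positivity
  have hβα : 0 < β - α := sub_pos.mpr hαβ
  have hLM0 : 0 ≤ L * M := by positivity
  have hK10 : 0 ≤ (Rbar ^ 2 * (2 + 2 * (L * M)) +
            (2 * Rbar * (2 + 2 * (L * M)) + (2 + 2 * (L * M)) ^ 2) * (1 + (2 + 2 * (L * M)))) := by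
    positivity
  generalize hK1 : (Rbar ^ 2 * (2 + 2 * (L * M)) +
            (2 * Rbar * (2 + 2 * (L * M)) + (2 + 2 * (L * M)) ^ 2) * (1 + (2 + 2 * (L * M)))) = K1
    at hK10
  obtain ⟨η', hη'⟩ : ∃ η' : ℝ, η' = η / (Real.sqrt (gram a b) * (β - α)) := ⟨_, rfl⟩
  have hη'pos : 0 < η' := by rw [hη']; positivity
  have hη'eq : Real.sqrt (gram a b) * (β - α) * η' = η := by
    rw [hη']; field_simp
  obtain ⟨θ, hθ⟩ : ∃ θ : ℝ, θ = min 1 (η' / (K1 + 2 * Rbar + 1)) := ⟨_, rfl⟩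
  have hden : 0 < K1 + 2 * Rbar + 1 := by positivity
  have hθpos : 0 < θ := by rw [hθ]; exact lt_min one_pos (by positivity)
  have hθ1 : θ ≤ 1 := by rw [hθ]; exact min_le_left _ _
  have hθK : θ * (K1 + 2 * Rbar + 1) ≤ η' := by
    have : θ ≤ η' / (K1 + 2 * Rbar + 1) := by rw [hθ]; exact min_le_right _ _
    rwa [le_div_iff₀ hden] at this
  have hθK1 : θ * K1 ≤ η' := by nlinarith
  have hθR : 2 * Rbar * θ ≤ η' := by nlinarith
  obtain ⟨δR, hδR, hoscR⟩ := exists_delta_osc R α β hR θ hθpos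
  obtain ⟨δF, hδF, hRS⟩ := riemann_sum_tendsto
    (fun τ => R τ ^ 2 / (2 * Real.sqrt (1 + ‖w τ‖ ^ 2))) α β hFc (η' * (β - α) / 2)
    (by positivity)
  refine ⟨min (min δR δF) (θ ^ 2), lt_min (lt_min hδR hδF) (by positivity), ?_⟩
  intro N t c ht h0 hN hmesh htag
  have hmeshR : ∀ i : Fin N, t i.succ - t i.castSucc ≤ δR := fun i =>
    le_trans (hmesh i) (le_trans (min_le_left _ _) (min_le_left _ _))
  have hmeshF : ∀ i : Fin N, t i.succ - t i.castSucc ≤ δF := fun i =>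
    le_trans (hmesh i) (le_trans (min_le_left _ _) (min_le_right _ _))
  have hmeshθ : ∀ i : Fin N, t i.succ - t i.castSucc ≤ θ ^ 2 := fun i =>
    le_trans (hmesh i) (min_le_right _ _)
  have hlt : ∀ i : Fin N, t i.castSucc < t i.succ := fun i => rs_piece_lt t ht i
  have hsubI : ∀ i : Fin N, Set.Icc (t i.castSucc) (t i.succ) ⊆ Set.Icc α β := by
    intro i
    have := rs_piece_subset t ht i
    rwa [h0, hN] at this
  have hcI : ∀ i : Fin N, c i ∈ Set.Icc α β := fun i => hsubI i ⟨(htag i).1, (htag i).2⟩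
  have hRS' := hRS N t c ht h0 hN hmeshF htag
  have hRosc : ∀ i : Fin N, ∀ τ ∈ Set.Icc (t i.castSucc) (t i.succ), |R τ - R (c i)| ≤ θ := by
    intro i τ hτ
    apply hoscR τ (hsubI i hτ) (c i) (hcI i)
    rw [abs_le]
    have := hmeshR i
    constructor <;> linarith [hτ.1, hτ.2, (htag i).1, (htag i).2]
  have hpm := fun i : Fin N =>
    piece_real harea e a b p₀ he ha hb hgram L hL α β R w hw lam hw' M hM'
      (t i.castSucc) (t i.succ) (c i) (hlt i) (hsubI i ⟨le_refl _, (hlt i).le⟩).1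
      (hsubI i ⟨(hlt i).le, le_refl _⟩).2 ⟨(htag i).1, (htag i).2⟩
      Rbar θ hθpos hθ1 (hmeshθ i) (fun τ hτ => hR0 τ (hsubI i hτ)) (hRb (c i) (hcI i))
      (hRosc i)
  rw [hK1] at hpm
  choose p q r hperp haff hsub h1 h2 h3 h4 using hpm
  have hsumh : ∑ i : Fin N, (t i.succ - t i.castSucc) = β - α := by rw [sum_mesh, hN, h0]
  obtain ⟨κ, hκ⟩ : ∃ κ : ℝ, κ = Real.sqrt (gram a b) := ⟨_, rfl⟩
  rw [← hκ] at h1 h2 h3 hκpos hη'eq ⊢
  obtain ⟨I, hI⟩ : ∃ I : ℝ, I = ∫ τ in α..β, R τ ^ 2 / (2 * Real.sqrt (1 + ‖w τ‖ ^ 2)) :=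
    ⟨_, rfl⟩
  rw [← hI] at hRS' ⊢
  obtain ⟨S, hS⟩ : ∃ S : ℝ, S = ∑ i : Fin N,
      R (c i) ^ 2 / (2 * Real.sqrt (1 + ‖w (c i)‖ ^ 2)) * (t i.succ - t i.castSucc) := ⟨_, rfl⟩
  rw [← hS] at hRS'
  have e1 : ∑ i : Fin N, κ * (R (c i) ^ 2 / (2 * Real.sqrt (1 + ‖w (c i)‖ ^ 2))) *
      (t i.succ - t i.castSucc) = κ * S := by
    rw [hS, Finset.mul_sum]
    exact Finset.sum_congr rfl (fun i _ => by ring)
  have e2 : ∀ C : ℝ, ∑ i : Fin N, C * (t i.succ - t i.castSucc) = C * (β - α) := by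
    intro C; rw [← Finset.mul_sum, hsumh]
  have hU1 : κ * S ≤ ∑ i, (μHE[2] (convexHull ℝ ({p i, q i, r i} : Set E3))).toReal := by
    rw [← e1]; exact Finset.sum_le_sum (fun i _ => h1 i)
  have hU2 : ∑ i, (μHE[2] (convexHull ℝ ({p i, q i, r i} : Set E3))).toReal ≤
      κ * S + κ / 2 * (θ * K1) * (β - α) := by
    rw [← e1, ← e2, ← Finset.sum_add_distrib]; exact Finset.sum_le_sum (fun i _ => h2 i)
  have hB1 : κ * S - κ / 2 * (2 * Rbar * θ) * (β - α) ≤ ∑ i : Fin N,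
      (μHE[2] (proj (e + w (c i)) '' piece e a b p₀ L R w (t i.castSucc) (t i.succ))).toReal := by
    rw [← e1, ← e2, ← Finset.sum_sub_distrib]; exact Finset.sum_le_sum (fun i _ => h3 i)
  have hB2 : ∑ i : Fin N,
      (μHE[2] (proj (e + w (c i)) '' piece e a b p₀ L R w (t i.castSucc) (t i.succ))).toReal ≤
      ∑ i, (μHE[2] (convexHull ℝ ({p i, q i, r i} : Set E3))).toReal :=
    Finset.sum_le_sum (fun i _ => h4 i)
  obtain ⟨hS1, hS2⟩ := abs_le.mp hRS'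
  have hκS1 : κ * (S - I) ≤ κ * (η' * (β - α) / 2) :=
    mul_le_mul_of_nonneg_left (by linarith) hκpos.le
  have hκS2 : κ * (-(η' * (β - α) / 2)) ≤ κ * (S - I) :=
    mul_le_mul_of_nonneg_left (by linarith) hκpos.le
  have hC1 : κ / 2 * (θ * K1) * (β - α) ≤ κ / 2 * η' * (β - α) :=
    mul_le_mul_of_nonneg_right (mul_le_mul_of_nonneg_left hθK1 (by positivity)) hβα.le
  have hC2 : κ / 2 * (2 * Rbar * θ) * (β - α) ≤ κ / 2 * η' * (β - α) :=
    mul_le_mul_of_nonneg_right (mul_le_mul_of_nonneg_left hθR (by positivity)) hβα.le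
  refine ⟨⟨p, q, r, hperp, haff, ?_, ?_⟩, ?_⟩
  · rintro x ⟨τ, hτ, ρ, hρ, s, hs, rfl⟩
    obtain ⟨i, hi⟩ := partition_cover N t ht τ (by rw [h0]; exact hτ.1) (by rw [hN]; exact hτ.2)
      (by rw [h0, hN]; exact hαβ)
    refine Set.mem_iUnion.mpr ⟨i, proj (e + w (c i)) (p₀ + ρ • (a + τ • b) + s • (e + w τ)),
      hsub i ⟨_, ⟨τ, hi, ρ, hρ, s, hs, rfl⟩, rfl⟩,
      inner ℝ (p₀ + ρ • (a + τ • b) + s • (e + w τ)) (e + w (c i)) / ‖e + w (c i)‖ ^ 2, ?_⟩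
    unfold proj
    abel
  · rw [abs_le]; constructor <;> linarith
  · rw [abs_le]; constructor <;> linarith

end Crest.Agent.S0328
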